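import Vale.Agent.Lib.P219.Warped

namespace Vale.Agent.Results.P219.CentredBallsWarped

open Vale.Agent.Lib.P219

/-- Rotationally symmetric case of the generalized Cartan-Hadamard conjecture for balls about the
pole, in every dimension `n ≥ 2` and for every curvature bound `κ = -b^2 ≤ 0`, with rigidity. -/
theorem result (n : ℕ) (hn : 2 ≤ n) (b : ℝ) (hb : 0 ≤ b) (f : ℝ → ℝ) (h : IsWarping b f) :
    (∀ t : ℝ, 0 < t → (1 - deriv f t ^ 2) / f t ^ 2 ≤ -b ^ 2) ∧
    ∀ r : ℝ, 0 < r →
      modelProfile n b (ballVol n f r) ≤ ballArea n f r ∧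
      (modelProfile n b (ballVol n f r) = ballArea n f r →
        ∀ t ∈ Set.Icc 0 r, f t = sn b t) := by
  refine ⟨?_, fun r hr => centred_ball n hn hb h r hr⟩
  intro t ht
  have he := h.energy t ht.le
  have hp : 0 < f t ^ 2 := pow_pos (h.pos t ht) 2
  rw [div_le_iff₀ hp]
  linarith

end Vale.Agent.Results.P219.CentredBallsWarped
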